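import Vale.Agent.P069.Defs
import Vale.Agent.P069.Pack

open Vale.Agent.P069

namespace Vale.Agent.Results.P069.Counterexample

theorem result :
    ∃ (X : Type) (_ : NormedAddCommGroup X) (_ : NormedSpace ℝ X),
      CompleteSpace X ∧ ¬ FiniteDimensional ℝ X ∧ TopologicalSpace.SeparableSpace X ∧
      IsReflexive X ∧
      (∀ t : ℝ, 0 < t →
        ((Real.sqrt (1 + t ^ 2 / 16) - 1 : ℝ) : EReal) ≤ amucModulus (normSeminorm ℝ X) t) ∧
      AMUCRenormable X ∧ ¬ AUCRenormable X :=
  dual_pack (E := E) goodE X_separable X_reflexive node branch (fun _ => rfl)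
    (fun _ _ _ => rfl) norm_node_ge norm_branch_le node_weak

end Vale.Agent.Results.P069.Counterexample
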